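import Mathlib

/-!
P127 (Kakeya conjecture, Hausdorff dimension form): Kakeya sets whose unit segments all meet
`P + ker T` (`P` countable, `T : ℝ^n → ℝ^k` linear and onto) have Hausdorff dimension at least `k`;
for `T = id`: Kakeya sets whose segments all pass through a countable set have full dimension.
-/

namespace Vale.Agent.Results.P127.PinnedSegments

open Set
open scoped ENNReal

theorem general (n k : ℕ) (T : EuclideanSpace ℝ (Fin n) →ₗ[ℝ] EuclideanSpace ℝ (Fin k))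
    (hT : Function.Surjective T) (K P : Set (EuclideanSpace ℝ (Fin n))) (hP : P.Countable)
    (h : ∀ e : EuclideanSpace ℝ (Fin n), ‖e‖ = 1 → ∃ a : EuclideanSpace ℝ (Fin n),
      (∀ t ∈ Set.Icc (0 : ℝ) 1, a + t • e ∈ K) ∧
      ∃ t₀ ∈ Set.Icc (0 : ℝ) 1, ∃ p ∈ P, T (a + t₀ • e) = T p) :
    (k : ℝ≥0∞) ≤ dimH K := by
  set Tc : EuclideanSpace ℝ (Fin n) →L[ℝ] EuclideanSpace ℝ (Fin k) :=
    LinearMap.toContinuousLinearMap T with hTc
  have hTc' : ∀ x, Tc x = T x := fun x => rfl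
  set f : ℝ → EuclideanSpace ℝ (Fin n) → EuclideanSpace ℝ (Fin n) → EuclideanSpace ℝ (Fin k) :=
    fun c p x => c • Tc (x - p) with hf
  have hL : ∀ (c : ℝ) (p : EuclideanSpace ℝ (Fin n)), dimH (f c p '' K) ≤ dimH K := by
    intro c p
    have h1 : LipschitzWith (‖c • Tc‖₊ * 1) (f c p) :=
      (c • Tc).lipschitz.comp ((IsometryEquiv.subRight p).isometry.lipschitz)
    exact h1.dimH_image_le K
  have hcov : (univ : Set (EuclideanSpace ℝ (Fin k))) ⊆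
      {0} ∪ ⋃ N : ℕ, ⋃ p ∈ P, (f (N : ℝ) p '' K ∪ f (-(N : ℝ)) p '' K) := by
    intro w _
    by_cases hw : w = 0
    · left; exact hw
    right
    obtain ⟨x, rfl⟩ := hT w
    have hx : x ≠ 0 := by
      rintro rfl
      exact hw (map_zero T)
    have hxn : 0 < ‖x‖ := norm_pos_iff.2 hx
    obtain ⟨a, hK, t₀, ht₀, p, hp, hTp⟩ := h (‖x‖⁻¹ • x) (norm_smul_inv_norm hx)
    set N : ℕ := ⌈2 * ‖x‖⌉₊ with hN
    have hN1 : 2 * ‖x‖ ≤ (N : ℝ) := Nat.le_ceil _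
    have hN0 : (0 : ℝ) < N := by linarith
    set s : ℝ := ‖x‖ / N with hs
    have hs0 : 0 ≤ s := by positivity
    have hs1 : s ≤ 1 / 2 := by
      rw [hs, div_le_iff₀ hN0]; linarith
    have hNs : (N : ℝ) * (s * ‖x‖⁻¹) = 1 := by
      rw [hs]; field_simp
    refine mem_iUnion.2 ⟨N, mem_iUnion₂.2 ⟨p, hp, ?_⟩⟩
    by_cases hc : t₀ ≤ 1 / 2
    · left
      refine ⟨a + (t₀ + s) • (‖x‖⁻¹ • x), hK _ ⟨by linarith [ht₀.1], by linarith⟩, ?_⟩
      simp only [hf, hTc']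
      have e1 : a + (t₀ + s) • (‖x‖⁻¹ • x) - p =
          (a + t₀ • (‖x‖⁻¹ • x)) - p + (s * ‖x‖⁻¹) • x := by
        rw [add_smul, smul_smul s]; abel
      rw [e1, map_add, map_sub, hTp, sub_self, zero_add, map_smul, smul_smul, hNs, one_smul]
    · right
      rw [not_le] at hc
      refine ⟨a + (t₀ - s) • (‖x‖⁻¹ • x), hK _ ⟨by linarith, by linarith [ht₀.2]⟩, ?_⟩
      simp only [hf, hTc']
      have e1 : a + (t₀ - s) • (‖x‖⁻¹ • x) - p =
          (a + t₀ • (‖x‖⁻¹ • x)) - p - (s * ‖x‖⁻¹) • x := by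
        rw [sub_smul, smul_smul s]; abel
      rw [e1, map_sub, map_sub, hTp, sub_self, zero_sub, map_smul, smul_neg, neg_smul, neg_neg,
        smul_smul, hNs, one_smul]
  have h1 : dimH (univ : Set (EuclideanSpace ℝ (Fin k))) = (k : ℝ≥0∞) := by
    rw [Real.dimH_univ_eq_finrank, finrank_euclideanSpace_fin]
  rw [← h1]
  refine (dimH_mono hcov).trans ?_
  rw [dimH_union, dimH_singleton, dimH_iUnion]
  refine max_le bot_le (iSup_le fun N => ?_)
  rw [dimH_bUnion hP]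
  refine iSup₂_le fun p _ => ?_
  rw [dimH_union]
  exact max_le (hL _ _) (hL _ _)

theorem result :
    (∀ (n k : ℕ) (T : EuclideanSpace ℝ (Fin n) →ₗ[ℝ] EuclideanSpace ℝ (Fin k)),
      Function.Surjective T →
      ∀ K P : Set (EuclideanSpace ℝ (Fin n)), P.Countable →
      (∀ e : EuclideanSpace ℝ (Fin n), ‖e‖ = 1 → ∃ a : EuclideanSpace ℝ (Fin n),
        (∀ t ∈ Set.Icc (0 : ℝ) 1, a + t • e ∈ K) ∧
        ∃ t₀ ∈ Set.Icc (0 : ℝ) 1, ∃ p ∈ P, T (a + t₀ • e) = T p) →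
      (k : ℝ≥0∞) ≤ dimH K) ∧
    (∀ (n : ℕ) (K P : Set (EuclideanSpace ℝ (Fin n))), P.Countable →
      (∀ e : EuclideanSpace ℝ (Fin n), ‖e‖ = 1 → ∃ a : EuclideanSpace ℝ (Fin n),
        (∀ t ∈ Set.Icc (0 : ℝ) 1, a + t • e ∈ K) ∧
        ∃ t₀ ∈ Set.Icc (0 : ℝ) 1, a + t₀ • e ∈ P) →
      dimH K = (n : ℝ≥0∞)) := by
  refine ⟨general, fun n K P hP h => le_antisymm ?_ ?_⟩
  · have h1 : dimH (univ : Set (EuclideanSpace ℝ (Fin n))) = (n : ℝ≥0∞) := by
      rw [Real.dimH_univ_eq_finrank, finrank_euclideanSpace_fin]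
    rw [← h1]
    exact dimH_mono (subset_univ _)
  · refine general n n LinearMap.id Function.surjective_id K P hP (fun e he => ?_)
    obtain ⟨a, h1, t₀, ht₀, hp⟩ := h e he
    exact ⟨a, h1, t₀, ht₀, _, hp, rfl⟩

end Vale.Agent.Results.P127.PinnedSegments
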